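import Vale.Agent.H54.LechClasses

/-!
# P202 (Lech's conjecture): closed fibres of finite length, all the bounds in one statement

Let `(R, m) → (S, n)` be a flat local homomorphism of Noetherian local rings whose closed fibre
`F = S / m S` has finite length `lam`; write `M = m S`, `N = n / M` for the maximal ideal of `F`
and `d = dim R`.  The Hilbert-Samuel multiplicities (defined as the limits in the problem
statement, see `Vale.Agent.H54.IsHilbertSamuelMultiplicity`) satisfy: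

1. `lam * e(R) ≤ 2 ^ (lam - 1) * e(S)`;
2. if `n ^ i ≤ m ^ j S` with `j ≥ 1`, then `lam * j ^ d * e(R) ≤ i ^ d * e(S)`;
3. if `J = M`, or `N` is not principal and `M ≤ J`, `J n ≤ M`, and if `a_1, …, a_t ∈ S` and
   `q_j ≥ 1` satisfy `a_j ^ (q_j) ∈ J + (a_i : i < j)` and `n ^ 2 ≤ (J + (a_1, …, a_t)) n`, then
   `lam * e(R) ≤ q_1 ⋯ q_t * e(S)` and `e(S) ≤ lam * e(R)`;
4. `e(R) ≤ e(S)` if one of the following holds:
   (a) `lam ≤ 4`, or `lam ≤ 5` and `N ^ 3 = 0`;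
   (b) `N ^ 2` is principal, and `N ^ 3 = 0` or `N` is not generated by two elements;
   (c) `N` is generated by `t ≥ 3` elements `y_i` with `y_i y_j = 0` for `i ≠ j`, none of them a
       multiple of another;
   (d) `n ^ 2 ≤ (a S + M) n` for some `a ∈ n`;
   (e) `F` modulo its socle has length at most `3` or has a principal maximal ideal;
   (f) `F` is isomorphic to `L[y_1, …, y_r] / (y_1, …, y_r) ^ k` for a field `L` and `r ≥ 2`;
   (g) `N ^ 3 = 0` and `N` is generated by `t` elements with `2 ^ t ≤ lam`;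
   (h) `N` is generated by two elements and there are `a, b ∈ N` outside `N ^ 2` and `c ∈ F`
       with `a b = 0`, `c b = 0` and `c` not a multiple of `a`.

The four parts are the statements of the hand-ins `A_fibreLength` (part 2 there),
`B_powerContainment`, `A_reduction` and `A_fibreClasses` of this folder, with the ideals `m S`
and `n` named `M` and `n` by the two equations `hM`, `hn`.
-/

namespace Vale.Agent.Results.P202.A_combinedBounds

open IsLocalRing Vale.Agent.H54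

theorem result {R S : Type*} [CommRing R] [CommRing S]
    [IsLocalRing R] [IsLocalRing S] [IsNoetherianRing R] [IsNoetherianRing S]
    [Algebra R S] [IsLocalHom (algebraMap R S)] [Module.Flat R S]
    (M n : Ideal S) (hM : M = (maximalIdeal R).map (algebraMap R S)) (hn : n = maximalIdeal S)
    (lam : ℕ) (hlam : Module.length S (S ⧸ M) = lam)
    (d : ℕ) (hd : ringKrullDim R = d)
    (L : Type*) [Field L] (r k : ℕ)
    (eR eS : ℝ)
    (heR : IsHilbertSamuelMultiplicity R eR) (heS : IsHilbertSamuelMultiplicity S eS) :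
    (lam : ℝ) * eR ≤ 2 ^ (lam - 1) * eS ∧
    (∀ i j : ℕ, 0 < j → n ^ i ≤ (maximalIdeal R ^ j).map (algebraMap R S) →
      (lam : ℝ) * (j : ℝ) ^ d * eR ≤ (i : ℝ) ^ d * eS) ∧
    (∀ (J : Ideal S) (t : ℕ) (a : Fin t → S) (q : Fin t → ℕ),
      (J = M ∨ ((∀ b : S, n ≠ Ideal.span {b} ⊔ M) ∧ M ≤ J ∧ J * n ≤ M)) →
      (∀ j : Fin t, 1 ≤ q j) →
      (∀ j : Fin t, a j ^ q j ∈ J ⊔ Ideal.span (a '' {i | i < j})) →
      n ^ 2 ≤ (J ⊔ Ideal.span (Set.range a)) * n →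
      (lam : ℝ) * eR ≤ ((∏ j, q j : ℕ) : ℝ) * eS ∧ eS ≤ (lam : ℝ) * eR) ∧
    ((lam ≤ 4 ∨
      (lam ≤ 5 ∧ n ^ 3 ≤ M) ∨
      (∃ g ∈ n ^ 2, n ^ 2 ≤ Ideal.span {g} ⊔ M ∧
        (n ^ 3 ≤ M ∨ ∀ a a' : S, n ≠ Ideal.span {a, a'} ⊔ M)) ∨
      (∃ (t : ℕ) (y : Fin t → S), 3 ≤ t ∧ n = Ideal.span (Set.range y) ⊔ M ∧
        (∀ i j : Fin t, i ≠ j → y i * y j ∈ M) ∧
        (∀ i j : Fin t, i ≠ j → ∀ s s' : S, s * y i - s' * y j ∈ M → s ∈ n)) ∨
      (∃ a ∈ n, n ^ 2 ≤ (Ideal.span {a} ⊔ M) * n) ∨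
      (∃ J : Ideal S, (∀ x : S, x ∈ J ↔ ∀ y ∈ n, x * y ∈ M) ∧
        (Module.length S (S ⧸ J) ≤ 3 ∨ ∃ a : S, n = Ideal.span {a} ⊔ J)) ∨
      (2 ≤ r ∧ Nonempty ((S ⧸ M) ≃+*
        (MvPolynomial (Fin r) L ⧸ MvPolynomial.idealOfVars (Fin r) L ^ k))) ∨
      (n ^ 3 ≤ M ∧ ∃ (t : ℕ) (a : Fin t → S), n = Ideal.span (Set.range a) ⊔ M ∧ 2 ^ t ≤ lam) ∨
      (∃ x y a b c : S, n = Ideal.span {x, y} ⊔ M ∧ a ∈ n ∧ b ∈ n ∧
        a ∉ n ^ 2 ⊔ M ∧ b ∉ n ^ 2 ⊔ M ∧ a * b ∈ M ∧ c * b ∈ M ∧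
        ∀ s s' : S, s * c - s' * a ∈ M → s ∈ n)) →
      eR ≤ eS) := by
  subst hM hn
  refine ⟨?_, ?_, ?_, ?_⟩
  · have hlam1 : 1 ≤ lam := by
      have h1 := one_le_length_fibre (R := R) (S := S)
      rw [hlam] at h1
      exact_mod_cast h1
    obtain ⟨j, rfl⟩ : ∃ j, lam = j + 1 := ⟨lam - 1, by omega⟩
    exact lech_colength_bound j hlam eR eS heR heS
  · intro i j hj hij
    exact (lech_inequality_of_pow_le d hd eR eS heR heS j i lam hj hij hlam).1
  · intro J t a q hJ hq1 hq hred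
    have h := lech_reduction_chain_bound J hJ t a q hq1 hq hred lam hlam eR eS heR heS
    exact ⟨h.1, h.2.1⟩
  · intro h
    exact lech_of_fibre_classes L r k lam hlam h eR eS heR heS

end Vale.Agent.Results.P202.A_combinedBounds
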