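import Vale.Agent.H54.FatPoint

/-!
# P202 (Lech's conjecture): closed fibres that are fat points

Let `(R, m) → (S, n)` be a flat local homomorphism of Noetherian local rings whose closed fibre
`S / m S` is isomorphic to `L[y_1, …, y_r] / (y_1, …, y_r) ^ k` for a field `L` and `r ≥ 2`
(`MvPolynomial.idealOfVars (Fin r) L` is the ideal generated by the variables).  Then
`n ^ (N + k) ≤ m ^ (N + 1) S` for all `N`, the Hilbert-Samuel multiplicities (defined as the
limits in the problem statement, see `Vale.Agent.H54.IsHilbertSamuelMultiplicity`) satisfy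
`e(R) ≤ e(S)`, and `e(S) = ℓ(S / m S) * e(R)`.
-/

namespace Vale.Agent.Results.P202.A_fatPointFibre

open IsLocalRing Vale.Agent.H54

theorem result {R S : Type*} [CommRing R] [CommRing S]
    [IsLocalRing R] [IsLocalRing S] [IsNoetherianRing R] [IsNoetherianRing S]
    [Algebra R S] [IsLocalHom (algebraMap R S)] [Module.Flat R S]
    {L : Type*} [Field L] (r k : ℕ) (hr : 2 ≤ r)
    (e : (S ⧸ (maximalIdeal R).map (algebraMap R S)) ≃+*
      (MvPolynomial (Fin r) L ⧸ MvPolynomial.idealOfVars (Fin r) L ^ k))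
    (eR eS : ℝ)
    (heR : IsHilbertSamuelMultiplicity R eR) (heS : IsHilbertSamuelMultiplicity S eS) :
    (∀ N : ℕ, maximalIdeal S ^ (N + k) ≤ (maximalIdeal R ^ (N + 1)).map (algebraMap R S)) ∧
      eR ≤ eS ∧ ∀ lam : ℕ,
        Module.length S (S ⧸ (maximalIdeal R).map (algebraMap R S)) = lam →
          eS = (lam : ℝ) * eR :=
  lech_of_fatPoint_fibre r k hr e eR eS heR heS

end Vale.Agent.Results.P202.A_fatPointFibre
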