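import Vale.Agent.H54.LechClasses

/-!
# P202 (Lech's conjecture): classes of closed fibres of finite length

Let `(R, m) → (S, n)` be a flat local homomorphism of Noetherian local rings whose closed fibre
`F = S / m S` has finite length `lam`, and write `N = n / m S` for the maximal ideal of `F`.
Then the Hilbert-Samuel multiplicities (defined as the limits in the problem statement, see
`Vale.Agent.H54.IsHilbertSamuelMultiplicity`) satisfy `e(R) ≤ e(S)` as soon as one of the
following holds:

* (a) `lam ≤ 4`, or `lam ≤ 5` and `N ^ 3 = 0` (`n ^ 3 ≤ m S`);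
* (b) `N ^ 2` is principal (`n ^ 2 ≤ g S + m S` for some `g ∈ n ^ 2`), and either `N ^ 3 = 0`
  (`n ^ 3 ≤ m S`) or `N` is not generated by two elements (`n` is not of the form
  `(a, a') + m S`);
* (c) `N` is generated by `t ≥ 3` elements `y i` with `y i * y j = 0` in `F` for `i ≠ j`, none
  of them a multiple of another in `F`;
* (d) `n ^ 2 ≤ (a S + m S) * n` for some `a ∈ n`;
* (e) `F` modulo its socle has length at most `3`, or has a principal maximal ideal (`J` is the
  ideal of all `x` with `x n ≤ m S`, the preimage of the socle of `F`);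
* (f) `F` is isomorphic to `L[y_1, …, y_r] / (y_1, …, y_r) ^ k` for a field `L` and `r ≥ 2`
  (`MvPolynomial.idealOfVars (Fin r) L` is the ideal generated by the variables);
* (g) `N ^ 3 = 0` and `N` is generated by `t` elements with `2 ^ t ≤ lam`;
* (h) `N` is generated by two elements, and there are `a, b ∈ N` outside `N ^ 2` and `c ∈ F`
  with `a * b = 0`, `c * b = 0` and `c` not a multiple of `a` in `F`.
-/

namespace Vale.Agent.Results.P202.A_fibreClasses

open IsLocalRing Vale.Agent.H54

theorem result {R S : Type*} [CommRing R] [CommRing S]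
    [IsLocalRing R] [IsLocalRing S] [IsNoetherianRing R] [IsNoetherianRing S]
    [Algebra R S] [IsLocalHom (algebraMap R S)] [Module.Flat R S]
    (L : Type*) [Field L] (r k : ℕ)
    (lam : ℕ) (hlam : Module.length S (S ⧸ (maximalIdeal R).map (algebraMap R S)) = lam)
    (h :
      lam ≤ 4 ∨
      (lam ≤ 5 ∧ maximalIdeal S ^ 3 ≤ (maximalIdeal R).map (algebraMap R S)) ∨
      (∃ g ∈ maximalIdeal S ^ 2,
        maximalIdeal S ^ 2 ≤ Ideal.span {g} ⊔ (maximalIdeal R).map (algebraMap R S) ∧
        (maximalIdeal S ^ 3 ≤ (maximalIdeal R).map (algebraMap R S) ∨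
          ∀ a a' : S, maximalIdeal S ≠
            Ideal.span {a, a'} ⊔ (maximalIdeal R).map (algebraMap R S))) ∨
      (∃ (t : ℕ) (y : Fin t → S), 3 ≤ t ∧
        maximalIdeal S = Ideal.span (Set.range y) ⊔ (maximalIdeal R).map (algebraMap R S) ∧
        (∀ i j : Fin t, i ≠ j → y i * y j ∈ (maximalIdeal R).map (algebraMap R S)) ∧
        (∀ i j : Fin t, i ≠ j → ∀ s s' : S,
          s * y i - s' * y j ∈ (maximalIdeal R).map (algebraMap R S) → s ∈ maximalIdeal S)) ∨
      (∃ a ∈ maximalIdeal S, maximalIdeal S ^ 2 ≤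
        (Ideal.span {a} ⊔ (maximalIdeal R).map (algebraMap R S)) * maximalIdeal S) ∨
      (∃ J : Ideal S,
        (∀ x : S, x ∈ J ↔
          ∀ y ∈ maximalIdeal S, x * y ∈ (maximalIdeal R).map (algebraMap R S)) ∧
        (Module.length S (S ⧸ J) ≤ 3 ∨ ∃ a : S, maximalIdeal S = Ideal.span {a} ⊔ J)) ∨
      (2 ≤ r ∧ Nonempty ((S ⧸ (maximalIdeal R).map (algebraMap R S)) ≃+*
        (MvPolynomial (Fin r) L ⧸ MvPolynomial.idealOfVars (Fin r) L ^ k))) ∨
      (maximalIdeal S ^ 3 ≤ (maximalIdeal R).map (algebraMap R S) ∧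
        ∃ (t : ℕ) (a : Fin t → S),
          maximalIdeal S = Ideal.span (Set.range a) ⊔ (maximalIdeal R).map (algebraMap R S) ∧
          2 ^ t ≤ lam) ∨
      (∃ x y a b c : S,
        maximalIdeal S = Ideal.span {x, y} ⊔ (maximalIdeal R).map (algebraMap R S) ∧
        a ∈ maximalIdeal S ∧ b ∈ maximalIdeal S ∧
        a ∉ maximalIdeal S ^ 2 ⊔ (maximalIdeal R).map (algebraMap R S) ∧
        b ∉ maximalIdeal S ^ 2 ⊔ (maximalIdeal R).map (algebraMap R S) ∧
        a * b ∈ (maximalIdeal R).map (algebraMap R S) ∧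
        c * b ∈ (maximalIdeal R).map (algebraMap R S) ∧
        ∀ s s' : S, s * c - s' * a ∈ (maximalIdeal R).map (algebraMap R S) →
          s ∈ maximalIdeal S))
    (eR eS : ℝ)
    (heR : IsHilbertSamuelMultiplicity R eR) (heS : IsHilbertSamuelMultiplicity S eS) :
    eR ≤ eS :=
  lech_of_fibre_classes L r k lam hlam h eR eS heR heS

end Vale.Agent.Results.P202.A_fibreClasses
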