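import Vale.Agent.H54.LechFibreLength

/-!
# P202 (Lech's conjecture): closed fibres of small length

Let `(R, m) → (S, n)` be a flat local homomorphism of Noetherian local rings whose closed fibre
`S / m S` has finite length `lam`, and let `e(R)`, `e(S)` be the Hilbert-Samuel multiplicities
(defined as the limits in the problem statement, see
`Vale.Agent.H54.IsHilbertSamuelMultiplicity`).  Then

1. if `lam ≤ 4` then `e(R) ≤ e(S)`;
2. `lam * e(R) ≤ 2 ^ (lam - 1) * e(S)`;
3. if `J` is the ideal of all `x` with `x n ≤ m S` (the preimage of the socle of the closed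
   fibre), and either `S / J` has length at most `3` or `n = (a) + J` for some `a`, then
   `e(R) ≤ e(S)`.
-/

namespace Vale.Agent.Results.P202.A_fibreLength

open IsLocalRing Vale.Agent.H54

theorem result {R S : Type*} [CommRing R] [CommRing S]
    [IsLocalRing R] [IsLocalRing S] [IsNoetherianRing R] [IsNoetherianRing S]
    [Algebra R S] [IsLocalHom (algebraMap R S)] [Module.Flat R S]
    (lam : ℕ) (hlam : Module.length S (S ⧸ (maximalIdeal R).map (algebraMap R S)) = lam)
    (eR eS : ℝ)
    (heR : IsHilbertSamuelMultiplicity R eR) (heS : IsHilbertSamuelMultiplicity S eS) :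
    (lam ≤ 4 → eR ≤ eS) ∧
      (lam : ℝ) * eR ≤ 2 ^ (lam - 1) * eS ∧
      (∀ J : Ideal S,
        (∀ x : S, x ∈ J ↔
          ∀ y ∈ maximalIdeal S, x * y ∈ (maximalIdeal R).map (algebraMap R S)) →
        (Module.length S (S ⧸ J) ≤ 3 ∨ ∃ a : S, maximalIdeal S = Ideal.span {a} ⊔ J) →
        eR ≤ eS) := by
  refine ⟨fun h4 => ?_, ?_, fun J hJ h => lech_of_socle_quotient lam hlam J hJ h eR eS heR heS⟩
  · refine lech_of_length_le_four ?_ eR eS heR heS
    rw [hlam]
    exact_mod_cast h4
  · have hlam1 : 1 ≤ lam := by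
      have h1 := one_le_length_fibre (R := R) (S := S)
      rw [hlam] at h1
      exact_mod_cast h1
    obtain ⟨j, rfl⟩ : ∃ j, lam = j + 1 := ⟨lam - 1, by omega⟩
    exact lech_colength_bound j hlam eR eS heR heS

end Vale.Agent.Results.P202.A_fibreLength
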