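import Vale.Agent.H54.LechChain

/-!
# P202 (Lech's conjecture): a dimension-free bound along a chain of square-zero steps

Let `(R, m) → (S, n)` be a flat local homomorphism of Noetherian local rings, and suppose that
`n = m S + (a 0, …, a (t - 1))` where, for every `j`, the square of `a j` lies in the ideal
`m S + (a 0, …, a (j - 1))` (in the statement, `a '' {i | i < j}` is the set of the `a i` with
`i < j`).  If the closed fibre `S / m S` has length `lam`, then the Hilbert-Samuel
multiplicities (defined as the limits in the problem statement, see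
`Vale.Agent.H54.IsHilbertSamuelMultiplicity`) satisfy

`lam * e(R) ≤ 2 ^ t * e(S)` and `e(S) ≤ lam * e(R)`,

so `e(R) ≤ e(S)` as soon as `2 ^ t ≤ lam`.  The bound does not involve the dimension of `R`.
-/

namespace Vale.Agent.Results.P202.B_chainBound

open IsLocalRing Vale.Agent.H54

theorem result {R S : Type*} [CommRing R] [CommRing S]
    [IsLocalRing R] [IsLocalRing S] [IsNoetherianRing R] [IsNoetherianRing S]
    [Algebra R S] [IsLocalHom (algebraMap R S)] [Module.Flat R S]
    (t : ℕ) (a : Fin t → S)
    (hsq : ∀ j : Fin t, a j ^ 2 ∈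
      (maximalIdeal R).map (algebraMap R S) ⊔ Ideal.span (a '' {i | i < j}))
    (hn : maximalIdeal S = (maximalIdeal R).map (algebraMap R S) ⊔ Ideal.span (Set.range a))
    (lam : ℕ) (hlam : Module.length S (S ⧸ (maximalIdeal R).map (algebraMap R S)) = lam)
    (eR eS : ℝ)
    (heR : IsHilbertSamuelMultiplicity R eR) (heS : IsHilbertSamuelMultiplicity S eS) :
    (lam : ℝ) * eR ≤ 2 ^ t * eS ∧ eS ≤ (lam : ℝ) * eR ∧
      ((2 : ℝ) ^ t ≤ (lam : ℝ) → eR ≤ eS) :=
  lech_chain_bound t a hsq hn lam hlam eR eS heR heS

end Vale.Agent.Results.P202.B_chainBound
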