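import Vale.Agent.H54.FibreOrder

/-!
# P202 (Lech's conjecture): closed fibres with maximal Hilbert function up to a given order

Let `(R, m) → (S, n)` be a flat local homomorphism of Noetherian local rings, `d = dim R`.
Assume that `n ^ (t + c) ≤ m S` and that `S / (m S + n ^ (t + 1))`, the closed fibre truncated
at order `t + 1`, is isomorphic to `L[y_1, …, y_r] / (y_1, …, y_r) ^ (t + 1)` for a field `L`,
with `r ≥ 2`, `t ≥ 1`, `c ≥ 1` (`MvPolynomial.idealOfVars (Fin r) L` is the ideal generated by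
the variables).  Then `n ^ (c * N + t) ≤ m ^ N S` for all `N`, and the Hilbert-Samuel
multiplicities (defined as the limits in the problem statement, see
`Vale.Agent.H54.IsHilbertSamuelMultiplicity`) satisfy
`ℓ(S / m S) * e(R) ≤ c ^ d * e(S)` and `e(S) ≤ ℓ(S / m S) * e(R)`; in particular
`e(R) ≤ e(S)` as soon as `c ^ d ≤ ℓ(S / m S)`.
-/

namespace Vale.Agent.Results.P202.B_fibreOrderBound

open IsLocalRing Vale.Agent.H54

theorem result {R S : Type*} [CommRing R] [CommRing S]
    [IsLocalRing R] [IsLocalRing S] [IsNoetherianRing R] [IsNoetherianRing S]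
    [Algebra R S] [IsLocalHom (algebraMap R S)] [Module.Flat R S]
    {L : Type*} [Field L] (r t c : ℕ) (hr : 2 ≤ r) (ht : 1 ≤ t) (hc : 1 ≤ c)
    (h1 : maximalIdeal S ^ (t + c) ≤ (maximalIdeal R).map (algebraMap R S))
    (e : (S ⧸ ((maximalIdeal R).map (algebraMap R S) ⊔ maximalIdeal S ^ (t + 1))) ≃+*
      (MvPolynomial (Fin r) L ⧸ MvPolynomial.idealOfVars (Fin r) L ^ (t + 1)))
    (d : ℕ) (hR : ringKrullDim R = d) (eR eS : ℝ)
    (heR : IsHilbertSamuelMultiplicity R eR) (heS : IsHilbertSamuelMultiplicity S eS)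
    (lam : ℕ) (hlam : Module.length S (S ⧸ (maximalIdeal R).map (algebraMap R S)) = lam) :
    (∀ N : ℕ, maximalIdeal S ^ (c * N + t) ≤ (maximalIdeal R ^ N).map (algebraMap R S)) ∧
      (lam : ℝ) * eR ≤ (c : ℝ) ^ d * eS ∧ eS ≤ (lam : ℝ) * eR ∧
        ((c : ℝ) ^ d ≤ (lam : ℝ) → eR ≤ eS) :=
  lech_of_fibre_order r t c hr ht hc h1 e d hR eR eS heR heS lam hlam

end Vale.Agent.Results.P202.B_fibreOrderBound
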