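import Vale.Agent.H54.Lech

/-!
# P202 (Lech's conjecture): an inequality from a containment `n ^ k ≤ m ^ j S`

Let `(R, m) → (S, n)` be a flat local homomorphism of Noetherian local rings, `d = dim R`,
with Hilbert-Samuel multiplicities `eR`, `eS` (defined as the limits in the problem statement,
see `Vale.Agent.H54.IsHilbertSamuelMultiplicity`).  If `n ^ k ≤ m ^ j S` with `j ≥ 1` and the
closed fibre `S / m S` has length `lam`, then `lam * j ^ d * eR ≤ k ^ d * eS`; in particular
`eR ≤ eS` whenever `k ^ d ≤ lam * j ^ d`.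
-/

namespace Vale.Agent.Results.P202.B_powerContainment

open IsLocalRing Vale.Agent.H54

theorem result {R S : Type*} [CommRing R] [CommRing S]
    [IsLocalRing R] [IsLocalRing S] [IsNoetherianRing R] [IsNoetherianRing S]
    [Algebra R S] [IsLocalHom (algebraMap R S)] [Module.Flat R S]
    (d : ℕ) (hR : ringKrullDim R = d) (eR eS : ℝ)
    (heR : IsHilbertSamuelMultiplicity R eR) (heS : IsHilbertSamuelMultiplicity S eS)
    (j k lam : ℕ) (hj : 0 < j)
    (hjk : maximalIdeal S ^ k ≤ (maximalIdeal R ^ j).map (algebraMap R S))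
    (hlam : Module.length S (S ⧸ (maximalIdeal R).map (algebraMap R S)) = lam) :
    (lam : ℝ) * (j : ℝ) ^ d * eR ≤ (k : ℝ) ^ d * eS ∧
      ((k : ℝ) ^ d ≤ (lam : ℝ) * (j : ℝ) ^ d → eR ≤ eS) :=
  lech_inequality_of_pow_le d hR eR eS heR heS j k lam hj hjk hlam

end Vale.Agent.Results.P202.B_powerContainment
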