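import Vale.Agent.H54.LechSocleChain

/-!
# P202 (Lech's conjecture): a dimension-free bound along a chain of principal steps
starting from the socle of the closed fibre

Let `(R, m) → (S, n)` be a flat local homomorphism of Noetherian local rings whose closed fibre
`S / m S` has finite length `lam`.  Let `J` be an ideal of `S` which is either `m S` itself, or,
when the maximal ideal of the closed fibre is not principal (`n` is not of the form
`(a) + m S`), any ideal with `m S ≤ J` and `J n ≤ m S` (an ideal whose image in the closed fibre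
lies in the socle).  Suppose `n = J + (a 0, …, a (t - 1))` and `a j ^ k j` lies in
`J + (a i : i < j)` for every `j`, with all `k j ≥ 1` (in the statement, `a '' {i | i < j}` is the
set of the `a i` with `i < j`).  Then the Hilbert-Samuel multiplicities (defined as the limits in
the problem statement, see `Vale.Agent.H54.IsHilbertSamuelMultiplicity`) satisfy

`lam * e(R) ≤ (∏ j, k j) * e(S)` and `e(S) ≤ lam * e(R)`,

so `e(R) ≤ e(S)` as soon as `∏ j, k j ≤ lam`.
-/

namespace Vale.Agent.Results.P202.B_socleChain

open IsLocalRing Vale.Agent.H54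

theorem result {R S : Type*} [CommRing R] [CommRing S]
    [IsLocalRing R] [IsLocalRing S] [IsNoetherianRing R] [IsNoetherianRing S]
    [Algebra R S] [IsLocalHom (algebraMap R S)] [Module.Flat R S]
    (J : Ideal S)
    (hJ : J = (maximalIdeal R).map (algebraMap R S) ∨
      ((∀ a : S, maximalIdeal S ≠ Ideal.span {a} ⊔ (maximalIdeal R).map (algebraMap R S)) ∧
        (maximalIdeal R).map (algebraMap R S) ≤ J ∧
        J * maximalIdeal S ≤ (maximalIdeal R).map (algebraMap R S)))
    (t : ℕ) (a : Fin t → S) (k : Fin t → ℕ) (hk1 : ∀ j : Fin t, 1 ≤ k j)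
    (hk : ∀ j : Fin t, a j ^ k j ∈ J ⊔ Ideal.span (a '' {i | i < j}))
    (hn : maximalIdeal S = J ⊔ Ideal.span (Set.range a))
    (lam : ℕ) (hlam : Module.length S (S ⧸ (maximalIdeal R).map (algebraMap R S)) = lam)
    (eR eS : ℝ)
    (heR : IsHilbertSamuelMultiplicity R eR) (heS : IsHilbertSamuelMultiplicity S eS) :
    (lam : ℝ) * eR ≤ ((∏ j, k j : ℕ) : ℝ) * eS ∧ eS ≤ (lam : ℝ) * eR ∧
      (((∏ j, k j : ℕ) : ℝ) ≤ (lam : ℝ) → eR ≤ eS) :=
  lech_socle_chain_bound J hJ t a k hk1 hk hn lam hlam eR eS heR heS

end Vale.Agent.Results.P202.B_socleChain
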