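import Vale.Agent.H54.LechPrincipal

/-!
# P202 (Lech's conjecture): closed fibres whose maximal ideal has square zero

Let `(R, m) → (S, n)` be a flat local homomorphism of Noetherian local rings with `n ^ 2 ≤ m S`,
i.e. the closed fibre `S / m S` has a maximal ideal of square zero.  Then the Hilbert-Samuel
multiplicities (defined as the limits in the problem statement, see
`Vale.Agent.H54.IsHilbertSamuelMultiplicity`) satisfy `e(R) ≤ e(S)`.  If moreover the maximal
ideal of the closed fibre is not principal (`n` is not of the form `a S + m S`), then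
`e(S) = ℓ(S / m S) * e(R)`.
-/

namespace Vale.Agent.Results.P202.B_sqZeroFibre

open IsLocalRing Vale.Agent.H54

theorem result {R S : Type*} [CommRing R] [CommRing S]
    [IsLocalRing R] [IsLocalRing S] [IsNoetherianRing R] [IsNoetherianRing S]
    [Algebra R S] [IsLocalHom (algebraMap R S)] [Module.Flat R S]
    (hsq : maximalIdeal S ^ 2 ≤ (maximalIdeal R).map (algebraMap R S))
    (eR eS : ℝ)
    (heR : IsHilbertSamuelMultiplicity R eR) (heS : IsHilbertSamuelMultiplicity S eS) :
    eR ≤ eS ∧
      ((∀ a : S, maximalIdeal S ≠ Ideal.span {a} ⊔ (maximalIdeal R).map (algebraMap R S)) →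
        ∀ lam : ℕ, Module.length S (S ⧸ (maximalIdeal R).map (algebraMap R S)) = lam →
          eS = (lam : ℝ) * eR) :=
  lech_of_sq_le hsq eR eS heR heS

end Vale.Agent.Results.P202.B_sqZeroFibre
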